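import Vale.Agent.P261.R2.H932.Asm
import Vale.Agent.P261.R2.H823.Alg
import Vale.Agent.P261.R2.H823.Shap

/-!
# P261: for every `n ≥ 2` there are Morava modules killed by `I_{n-1}` with infinite `H¹`
-/

namespace Vale.Agent.P261.R2.H823

open MvPowerSeries Vale.Agent.P217 Vale.Agent.P217.H934 Vale.Agent.P261.R2.H932 Topology

variable {p n : ℕ} [Fact p.Prime] {Γ : FormalGroup (ZMod p)} {F : FormalGroup (LT.E0 p n)}

/-- the last variable `u_{n-1}`. -/
noncomputable def lastVar (p n : ℕ) [Fact p.Prime] (hn2 : 2 ≤ n) : LT.E0 p n :=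
  X ⟨n - 2, by omega⟩

theorem top_eq (hn2 : 2 ≤ n) : LT.heightIdeal p n n =
    LT.heightIdeal p n (n - 1) ⊔ Ideal.span {lastVar p n hn2} := by
  rw [LT.heightIdeal, LT.heightIdeal, if_neg (by omega), if_neg (by omega), ← Ideal.span_union]
  congr 1
  ext x
  simp only [Set.mem_union, Set.mem_singleton_iff, Set.mem_ofPred_eq]
  constructor
  · rintro (h | ⟨i, hi, rfl⟩)
    · exact Or.inl (Or.inl h)
    · by_cases h2 : (i : ℕ) + 1 < n - 1
      · exact Or.inl (Or.inr ⟨i, h2, rfl⟩)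
      · refine Or.inr ?_
        rw [lastVar]
        congr 1
        ext
        change (i : ℕ) = n - 2
        have := i.2
        omega
  · rintro ((h | ⟨i, hi, rfl⟩) | h)
    · exact Or.inl h
    · exact Or.inr ⟨i, by omega, rfl⟩
    · exact Or.inr ⟨⟨n - 2, by omega⟩, by simp only; omega, h⟩

theorem mk_mem (hn2 : 2 ≤ n) (k : ℕ) (x : LT.E0 p n) (hx : x ∈ LT.heightIdeal p n n ^ k) :
    ∃ y, Ideal.Quotient.mk (LT.heightIdeal p n (n - 1)) x =
      (Ideal.Quotient.mk (LT.heightIdeal p n (n - 1)) (lastVar p n hn2)) ^ k * y := by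
  have h1 := Ideal.mem_map_of_mem (Ideal.Quotient.mk (LT.heightIdeal p n (n - 1))) hx
  rw [Ideal.map_pow, top_eq hn2, Ideal.map_sup, Ideal.map_quotient_self, bot_sup_eq,
    Ideal.map_span, Set.image_singleton, Ideal.span_singleton_pow,
    Ideal.mem_span_singleton'] at h1
  obtain ⟨y, hy⟩ := h1
  exact ⟨y, by rw [← hy, mul_comm]⟩

theorem last_notMem (hn2 : 2 ≤ n) : lastVar p n hn2 ∉ LT.heightIdeal p n (n - 1) := by
  intro h
  have h1 : lastVar p n hn2 ∈ P217.heightIdeal p n (n - 1) := h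
  rw [mem_heightIdeal_iff (n - 1) (by omega) (by omega)] at h1
  have h2 : lastVar p n hn2 = X (embH n (n - 1) (by omega) (by omega)
      (⟨0, Nat.sub_pos_of_lt (by omega)⟩ : Fin (n - (n - 1)))) := by
    rw [lastVar]
    congr 1
    ext
    change n - 2 = 0 + (n - 1 - 1)
    omega
  rw [h2, piH_X_emb] at h1
  exact (prime_X (p := p) (by omega : 1 ≤ n) (n - 1) (by omega) (by omega)).ne_zero h1

theorem red_last (hn2 : 2 ≤ n) : red p n (lastVar p n hn2) = 0 := by
  rw [← mem_heightIdeal_top (by omega)]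
  change lastVar p n hn2 ∈ LT.heightIdeal p n n
  rw [top_eq hn2]
  exact Ideal.mem_sup_right (Ideal.mem_span_singleton_self _)

theorem isUnit_of_red {x : LT.E0 p n} (hx : red p n x ≠ 0) : IsUnit x :=
  CA.isUnit_iff_rd.2 hx

/-- the elements acting trivially modulo `𝔪 ^ k`. -/
def cong (H : Subgroup (Gn p n F)) (k : ℕ) : Subgroup H where
  carrier := {g | ∀ r, Gn.pi (g : Gn p n F) r - r ∈ LT.heightIdeal p n n ^ k}
  one_mem' := by
    intro r
    have h1 : Gn.pi ((1 : H) : Gn p n F) r - r = 0 := sub_self r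
    rw [h1]
    exact Ideal.zero_mem _
  mul_mem' := by
    intro g h hg hh r
    have h1 : Gn.pi ((g * h : H) : Gn p n F) r - r =
        (Gn.pi (g : Gn p n F) (Gn.pi (h : Gn p n F) r) - Gn.pi (h : Gn p n F) r) +
          (Gn.pi (h : Gn p n F) r - r) := by
      rw [sub_add_sub_cancel]
      rfl
    rw [h1]
    exact Ideal.add_mem _ (hg _) (hh r)
  inv_mem' := by
    intro g hg r
    have h1 : Gn.pi (g : Gn p n F) (Gn.pi ((g⁻¹ : H) : Gn p n F) r) = r := by
      have h2 : Gn.pi (g : Gn p n F) (Gn.pi ((g⁻¹ : H) : Gn p n F) r) =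
        Gn.pi ((g * g⁻¹ : H) : Gn p n F) r := rfl
      rw [h2, mul_inv_cancel]
      rfl
    have h3 := hg (Gn.pi ((g⁻¹ : H) : Gn p n F) r)
    rw [h1] at h3
    rw [← neg_sub]
    exact Ideal.neg_mem_iff _ |>.2 h3

section

variable (hn1 : 1 ≤ n) (hF : LT.IsUniversal p n Γ F) (hA : LT.HeightAdapted p n F)
  (H : Subgroup (Gn p n F))

include hn1 hF hA

theorem pi_mem (h : ℕ) (hle : h ≤ n) (k : ℕ) (g : H) {x : LT.E0 p n}
    (hx : x ∈ LT.heightIdeal p n h ^ k) :
    Gn.pi (g : Gn p n F) x ∈ LT.heightIdeal p n h ^ k := by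
  have h1 : (LT.heightIdeal p n h).map
      ((Gn.pi (g : Gn p n F) : RingAut (LT.E0 p n)) : LT.E0 p n →+* LT.E0 p n) ≤
      LT.heightIdeal p n h := by
    rw [Ideal.map_le_iff_le_comap]
    exact fun y hy => (mem_of_phi hn1 hF hA (piH' H).range (range_le hF H) h hle
      (Gn.pi (g : Gn p n F)) ⟨g, rfl⟩ y).2 hy
  have h2 := Ideal.mem_map_of_mem
    ((Gn.pi (g : Gn p n F) : RingAut (LT.E0 p n)) : LT.E0 p n →+* LT.E0 p n) hx
  rw [Ideal.map_pow] at h2
  exact Ideal.pow_right_mono h1 _ h2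

omit hn1 hF hA in
theorem exists_act {I : Ideal (LT.E0 p n)} (hI : ∀ (g : H), ∀ r ∈ I, Gn.pi (g : Gn p n F) r ∈ I) :
    ∃ a : H →* ((LT.E0 p n ⧸ I) →+* (LT.E0 p n ⧸ I)),
      ∀ g r, a g (Ideal.Quotient.mk _ r) =
        Ideal.Quotient.mk _ (Gn.pi (g : Gn p n F) r) := by
  have hle' : ∀ g : H, I ≤ I.comap
      ((Gn.pi (g : Gn p n F) : RingAut (LT.E0 p n)) : LT.E0 p n →+* LT.E0 p n) := fun g x hx =>
    hI g x hx
  refine ⟨{ toFun := fun g => Ideal.quotientMap _ _ (hle' g), map_one' := ?_, map_mul' := ?_ },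
    fun g r => rfl⟩
  · refine Ideal.Quotient.ringHom_ext ?_
    ext r
    rfl
  · intro g g'
    refine Ideal.Quotient.ringHom_ext ?_
    ext r
    rfl

theorem cong_normal (k : ℕ) : (cong H k).Normal := by
  refine ⟨fun g hg x r => ?_⟩
  have h1 : Gn.pi ((x * g * x⁻¹ : H) : Gn p n F) r - r =
      Gn.pi (x : Gn p n F) (Gn.pi (g : Gn p n F) (Gn.pi ((x⁻¹ : H) : Gn p n F) r) -
        Gn.pi ((x⁻¹ : H) : Gn p n F) r) := by
    have h2 : Gn.pi (x : Gn p n F) (Gn.pi ((x⁻¹ : H) : Gn p n F) r) = r := by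
      have h3 : Gn.pi (x : Gn p n F) (Gn.pi ((x⁻¹ : H) : Gn p n F) r) =
        Gn.pi ((x * x⁻¹ : H) : Gn p n F) r := rfl
      rw [h3, mul_inv_cancel]
      rfl
    rw [map_sub, h2]
    rfl
  rw [h1]
  exact pi_mem hn1 hF hA H n le_rfl k x (hg _)

omit hF hA in
theorem top_eq_maximalIdeal : LT.heightIdeal p n n = IsLocalRing.maximalIdeal (LT.E0 p n) := by
  ext x
  have h1 := mem_heightIdeal_top (p := p) hn1 x
  have h2 : x ∈ IsLocalRing.maximalIdeal (LT.E0 p n) ↔ red p n x = 0 := by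
    rw [CA.maximalIdeal_eq_ker]
    exact RingHom.mem_ker
  rw [h2]
  exact h1

theorem cong_index (k : ℕ) : (cong H k).index ≠ 0 := by
  obtain ⟨b, hb⟩ := exists_act H (fun g _ hr => pi_mem hn1 hF hA H n le_rfl k g hr)
  have hQ : Finite (LT.E0 p n ⧸ LT.heightIdeal p n n ^ k) := by
    rw [top_eq_maximalIdeal hn1]
    exact CA.finite_quotient_E0 k
  have hE : Finite ((LT.E0 p n ⧸ LT.heightIdeal p n n ^ k) →+*
      (LT.E0 p n ⧸ LT.heightIdeal p n n ^ k)) :=
    Finite.of_injective (fun f => (f : (LT.E0 p n ⧸ LT.heightIdeal p n n ^ k) →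
      (LT.E0 p n ⧸ LT.heightIdeal p n n ^ k))) DFunLike.coe_injective
  have h1 : b.toHomUnits.ker ≤ cong H k := by
    intro g hg r
    rw [MonoidHom.mem_ker] at hg
    have h2 : b g = 1 := by
      rw [← MonoidHom.coe_toHomUnits b g, hg]
      rfl
    have h3 := hb g r
    rw [h2] at h3
    rw [← Ideal.Quotient.eq_zero_iff_mem, map_sub, ← h3]
    exact sub_self _
  have h2 : b.toHomUnits.ker.index ≠ 0 := by
    have h3 : b.toHomUnits.ker.FiniteIndex := inferInstance
    exact h3.index_ne_zero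
  exact ne_zero_of_dvd_ne_zero h2 (Subgroup.index_dvd_of_le h1)

end

theorem fun_mem {ι : Type*} [Finite ι] {I J : Ideal (LT.E0 p n)} (f : ι → LT.E0 p n ⧸ I)
    (hf : ∀ x, ∃ r ∈ J, f x = Ideal.Quotient.mk I r) :
    f ∈ (J • ⊤ : Submodule (LT.E0 p n) (ι → LT.E0 p n ⧸ I)) := by
  classical
  have := Fintype.ofFinite ι
  choose r hr hf using hf
  have h1 : f = ∑ x, r x • Pi.single x (1 : LT.E0 p n ⧸ I) := by
    funext y
    rw [Finset.sum_apply, Finset.sum_eq_single y]
    · rw [Pi.smul_apply, Pi.single_eq_same, hf]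
      have h2 : r y • (1 : LT.E0 p n ⧸ I) = Ideal.Quotient.mk I (r y * 1) := rfl
      rw [h2, mul_one]
    · intro x _ hx
      rw [Pi.smul_apply, Pi.single_eq_of_ne (Ne.symm hx), smul_zero]
    · intro h
      exact absurd (Finset.mem_univ _) h
  rw [h1]
  exact Submodule.sum_mem _ fun x _ => Submodule.smul_mem_smul (hr x) Submodule.mem_top

section

variable (hn2 : 2 ≤ n) (hΓ : LT.IsHonda p n Γ) (hF : LT.IsUniversal p n Γ F)
  (hA : LT.HeightAdapted p n F)

include hΓ hF hA

/-- two powers of the basic crossed homomorphism are not cohomologous on a subgroup of finite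
index. -/
theorem key (H : Subgroup (Gn p n F)) (hH : H.index ≠ 0)
    (a : H →* ((LT.E0 p n ⧸ LT.heightIdeal p n (n - 1)) →+*
      (LT.E0 p n ⧸ LT.heightIdeal p n (n - 1))))
    (ha : ∀ g r, a g (Ideal.Quotient.mk _ r) = Ideal.Quotient.mk _ (Gn.pi (g : Gn p n F) r))
    (N : Subgroup H) (hN : N.index ≠ 0) (c : N → LT.E0 p n ⧸ LT.heightIdeal p n (n - 1))
    (hc : ∀ g : N, Ideal.Quotient.mk _ (lastVar p n hn2) *
      a g (Ideal.Quotient.mk _ (lastVar p n hn2)) * c g =
        Ideal.Quotient.mk _ (lastVar p n hn2) - a g (Ideal.Quotient.mk _ (lastVar p n hn2)))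
    (s t : ℕ) (hst : s < t) (m : LT.E0 p n ⧸ LT.heightIdeal p n (n - 1))
    (hm : ∀ g : N, c g ^ p ^ s - c g ^ p ^ t = a g m - m) : False := by
  have hp1 : 1 < p := (Fact.out : p.Prime).one_lt
  have hprime : (LT.heightIdeal p n (n - 1)).IsPrime :=
    isPrime_heightIdeal (by omega) (n - 1) (by omega)
  have hdom : IsDomain (LT.E0 p n ⧸ LT.heightIdeal p n (n - 1)) := Ideal.Quotient.isDomain _
  have hchar : CharP (LT.E0 p n ⧸ LT.heightIdeal p n (n - 1)) p := by
    refine (CharP.charP_iff_prime_eq_zero (Fact.out : p.Prime)).2 ?_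
    rw [← map_natCast (Ideal.Quotient.mk (LT.heightIdeal p n (n - 1))) p,
      Ideal.Quotient.eq_zero_iff_mem, LT.heightIdeal, if_neg (by omega)]
    exact Ideal.subset_span (Or.inl rfl)
  obtain ⟨m, rfl⟩ := Ideal.Quotient.mk_surjective m
  set u := lastVar p n hn2 with hu
  have hindex : (N.map H.subtype).index ≠ 0 := by
    rw [Subgroup.index_map_subtype]
    exact mul_ne_zero hN hH
  obtain ⟨c0, -, hc0⟩ := frac (by omega) hΓ hF hA (N.map H.subtype) hindex (n - 1) (by omega)
    (by omega) (u ^ (p ^ t - p ^ s) - 1 - m * u ^ p ^ t) (u ^ p ^ t)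
    (fun h => last_notMem hn2 (hprime.mem_of_pow_mem _ h)) (by
      rintro ⟨_, g, hg, rfl⟩
      have h1 := fraction (R := LT.E0 p n ⧸ LT.heightIdeal p n (n - 1))
        (a := fun g : N => a (g : H)) (u := Ideal.Quotient.mk _ u) p hc hst.le hm ⟨g, hg⟩
      rw [← Ideal.Quotient.eq_zero_iff_mem, ← h1]
      simp only [map_sub, map_mul, map_pow, map_one, ha]
      rfl)
  have h2 : red p n (u ^ (p ^ t - p ^ s) - 1 - m * u ^ p ^ t - c0 * u ^ p ^ t) = 0 := by
    rw [← mem_heightIdeal_top (by omega)]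
    change _ ∈ LT.heightIdeal p n n
    rw [top_eq hn2]
    exact Ideal.mem_sup_left hc0
  have hlt : p ^ s < p ^ t := Nat.pow_lt_pow_right hp1 hst
  rw [map_sub, map_sub, map_sub, map_mul, map_mul, map_pow, map_pow, map_one, hu, red_last hn2,
    zero_pow (by omega), zero_pow (by omega)] at h2
  simp at h2

include hn2 in
theorem neg (H : Subgroup (Gn p n F)) (hH : H.index ≠ 0) :
    ∃ (M : Type) (_ : AddCommGroup M) (_ : Module (LT.E0 p n) M) (ρ : H → M → M),
      Vale.Agent.P261.IsMoravaModule H M ρ ∧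
      (∀ r ∈ LT.heightIdeal p n (n - 1), ∀ m : M, r • m = 0) ∧
      ∀ [TopologicalSpace H], (∀ k, ∀ᶠ g : H in 𝓝 (1 : H), ∀ r,
        Gn.pi (g : Gn p n F) r - r ∈ LT.heightIdeal p n n ^ k) →
          ¬ Vale.Agent.P261.H1Finite H ρ := by
  classical
  have hn1 : 1 ≤ n := by omega
  set I := LT.heightIdeal p n (n - 1) with hIdef
  have hprime : I.IsPrime := isPrime_heightIdeal (by omega) (n - 1) (by omega)
  have hdom : IsDomain (LT.E0 p n ⧸ I) := Ideal.Quotient.isDomain _
  have hchar : CharP (LT.E0 p n ⧸ I) p := by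
    refine (CharP.charP_iff_prime_eq_zero (Fact.out : p.Prime)).2 ?_
    rw [← map_natCast (Ideal.Quotient.mk I) p,
      Ideal.Quotient.eq_zero_iff_mem, hIdef, LT.heightIdeal, if_neg (by omega)]
    exact Ideal.subset_span (Or.inl rfl)
  obtain ⟨a, ha⟩ := exists_act H (I := I) (fun g r hr => by
    have h1 := pi_mem hn1 hF hA H (n - 1) (by omega) 1 g (x := r) (by rwa [pow_one])
    rwa [pow_one] at h1)
  set N := cong H 2 with hNdef
  have hNn : N.Normal := cong_normal hn1 hF hA H 2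
  have hNi : N.index ≠ 0 := cong_index hn1 hF hA H 2
  have hNf : N.FiniteIndex := ⟨hNi⟩
  have hfin : Finite (H ⧸ N) := inferInstance
  set u := lastVar p n hn2 with hu
  have huJ : u ∈ LT.heightIdeal p n n := by
    rw [top_eq hn2]
    exact Ideal.mem_sup_right (Ideal.mem_span_singleton_self _)
  have hu0 : Ideal.Quotient.mk I u ≠ 0 := fun h =>
    last_notMem hn2 (Ideal.Quotient.eq_zero_iff_mem.1 h)
  refine ⟨(H ⧸ N) → LT.E0 p n ⧸ I, inferInstance, inferInstance, rhoC a N, ?_, ?_, ?_⟩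
  · refine ⟨inferInstance, ?_, ?_, ?_, ?_⟩
    · intro f
      funext x
      rw [rhoC, act_one, inv_one, one_smul]
    · intro g h f
      funext x
      simp only [rhoC]
      rw [act_mul, mul_inv_rev, mul_smul]
    · intro g f f'
      funext x
      simp only [rhoC, Pi.add_apply, map_add]
    · intro g r f
      funext x
      simp only [rhoC, Pi.smul_apply]
      obtain ⟨s, hs⟩ := Ideal.Quotient.mk_surjective (f (g⁻¹ • x))
      rw [← hs, ha]
      have h1 : r • Ideal.Quotient.mk I s = Ideal.Quotient.mk I (r * s) := rfl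
      rw [h1, ha, map_mul]
      rfl
  · intro r hr f
    funext x
    obtain ⟨s, hs⟩ := Ideal.Quotient.mk_surjective (f x)
    rw [Pi.smul_apply, ← hs]
    have h1 : r • Ideal.Quotient.mk I s = Ideal.Quotient.mk I (r * s) := rfl
    rw [h1, Pi.zero_apply, Ideal.Quotient.eq_zero_iff_mem]
    exact Ideal.mul_mem_right _ _ hr
  · intro _ hcont
    rintro ⟨S, hSfin, hScoc, hS⟩
    -- the basic crossed homomorphism
    have htr : ∀ g : N, ∃ d, a g (Ideal.Quotient.mk I u) =
        Ideal.Quotient.mk I u * (1 + Ideal.Quotient.mk I u * d) ∧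
          IsUnit (1 + Ideal.Quotient.mk I u * d) := by
      intro g
      obtain ⟨y, hy⟩ := mk_mem hn2 2 _ (g.2 u)
      obtain ⟨y, rfl⟩ := Ideal.Quotient.mk_surjective y
      rw [← hIdef, ← hu, map_sub, ← ha] at hy
      refine ⟨Ideal.Quotient.mk I y, ?_, ?_⟩
      · linear_combination hy
      · rw [← map_mul, ← map_one (Ideal.Quotient.mk I), ← map_add]
        refine IsUnit.map _ (isUnit_of_red ?_)
        rw [map_add, map_mul, map_one, hu, red_last hn2, zero_mul, add_zero]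
        exact one_ne_zero
    obtain ⟨c, hc⟩ := exists_c (fun g : N => a (g : H)) (Ideal.Quotient.mk I u) htr
    have hinj : ∀ g : N, a (g : H) (Ideal.Quotient.mk I u) ≠ 0 := by
      intro g h
      obtain ⟨d, h1, h2⟩ := htr g
      rw [h1] at h
      rcases mul_eq_zero.1 h with h3 | h3
      · exact hu0 h3
      · exact h2.ne_zero h3
    have hcc : ∀ g h : N, c (g * h) = c g + a (g : H) (c h) :=
      cocycle (a := fun g : N => a (g : H)) hu0 hinj (fun g h x => act_mul a g h x) hc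
    have hccs : ∀ s, ∀ g h : N, c (g * h) ^ p ^ s = c g ^ p ^ s + a (g : H) (c h ^ p ^ s) :=
      fun s => cocycle_pow (a := fun g : N => a (g : H)) p hcc s
    -- continuity
    set Jb : Ideal (LT.E0 p n ⧸ I) := (LT.heightIdeal p n n).map (Ideal.Quotient.mk I) with hJb
    have huJb : Ideal.Quotient.mk I u ∈ Jb := Ideal.mem_map_of_mem _ huJ
    have hest : ∀ (k : ℕ) (w : N), (w : H) ∈ cong H (k + 2) → c w ∈ Jb ^ k := by
      intro k w hw
      obtain ⟨y, hy⟩ := mk_mem hn2 (k + 2) _ (hw u)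
      obtain ⟨y, rfl⟩ := Ideal.Quotient.mk_surjective y
      rw [← hIdef, ← hu, map_sub, ← ha] at hy
      obtain ⟨d, h1, v, hv⟩ := htr w
      have h3 := hc w
      rw [← hv] at h1
      rw [h1] at hy h3
      have h4 : (v : LT.E0 p n ⧸ I) * c w =
          -(Ideal.Quotient.mk I u ^ k * Ideal.Quotient.mk I y) := by
        refine mul_left_cancel₀ (mul_ne_zero hu0 hu0) ?_
        linear_combination h3 - hy
      have h6 : c w = Ideal.Quotient.mk I u ^ k *
          (-((↑v⁻¹ : LT.E0 p n ⧸ I) * Ideal.Quotient.mk I y)) := by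
        calc c w = (↑v⁻¹ : LT.E0 p n ⧸ I) * (↑v * c w) := by
              rw [← mul_assoc, Units.inv_mul, one_mul]
          _ = _ := by rw [h4]; ring
      rw [h6]
      exact Ideal.mul_mem_right _ _ (Ideal.pow_mem_pow huJb k)
    have hact : ∀ (k : ℕ) (x : H), ∀ y ∈ Jb ^ k, ∃ r ∈ LT.heightIdeal p n n ^ k,
        a x y = Ideal.Quotient.mk I r := by
      intro k x y hy
      rw [hJb, ← Ideal.map_pow] at hy
      obtain ⟨r, hr, rfl⟩ :=
        (Ideal.mem_map_iff_of_surjective _ Ideal.Quotient.mk_surjective).1 hy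
      exact ⟨Gn.pi (x : Gn p n F) r, pi_mem hn1 hF hA H n le_rfl k x hr, ha x r⟩
    have hC : ∀ s : ℕ, Vale.Agent.P261.IsCocycle H (rhoC a N)
        (coind a N (fun g => c g ^ p ^ s)) := by
      intro s
      refine ⟨fun g h => coind_mul a N (hccs s) g h, fun k => ?_⟩
      filter_upwards [hcont (k + 2), hcont 2] with g hg hg2
      refine fun_mem _ fun x => ?_
      have hgN : g ∈ N := hg2
      have hgx : g⁻¹ • x = x := by
        obtain ⟨y, rfl⟩ := QuotientGroup.mk_surjective x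
        rw [MulAction.Quotient.smul_mk, smul_eq_mul, QuotientGroup.eq, mul_inv_rev, inv_inv]
        have := hNn.conj_mem g hgN y⁻¹
        rwa [inv_inv] at this
      have hw : (Quotient.out x)⁻¹ * g * Quotient.out (g⁻¹ • x) ∈ cong H (k + 2) := by
        rw [hgx]
        have := (cong_normal hn1 hF hA H (k + 2)).conj_mem g hg (Quotient.out x)⁻¹
        rwa [inv_inv] at this
      have h1 := hest k ⟨_, mem_aux N g x⟩ hw
      exact hact k _ _ (Ideal.pow_mem_of_mem _ h1 _ (pow_pos (Fact.out : p.Prime).pos s))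
    -- two of the classes are equal
    choose f hfS hf using fun s => hS _ (hC s)
    obtain ⟨s, t, hst, hfst⟩ : ∃ s t, s < t ∧ f s = f t := by
      have := hSfin.to_subtype
      obtain ⟨s, t, hne, he⟩ :=
        Finite.exists_ne_map_eq_of_infinite (fun s => (⟨f s, hfS s⟩ : S))
      have he' : f s = f t := congrArg Subtype.val he
      rcases lt_or_gt_of_ne hne with h | h
      · exact ⟨s, t, h, he'⟩
      · exact ⟨t, s, h, he'.symm⟩
    obtain ⟨m1, hm1⟩ := hf s
    obtain ⟨m2, hm2⟩ := hf t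
    obtain ⟨m, hm⟩ := coind_base a N (c := fun g => c g ^ p ^ s) (d := fun g => c g ^ p ^ t)
      (m := m1 - m2) (fun g => by
        have h1 := hm1 g
        have h2 := hm2 g
        rw [Pi.sub_apply] at h1 h2
        have h3 : rhoC a N g (m1 - m2) = rhoC a N g m1 - rhoC a N g m2 := by
          funext x
          simp only [rhoC, Pi.sub_apply, map_sub]
        have h4 : coind a N (fun g => c g ^ p ^ s) g - coind a N (fun g => c g ^ p ^ t) g =
            (coind a N (fun g => c g ^ p ^ s) g - f s g) -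
              (coind a N (fun g => c g ^ p ^ t) g - f t g) := by
          rw [hfst]
          abel
        rw [h3, h4, h1, h2]
        abel)
    exact key hn2 hΓ hF hA H hH a ha N hNi c hc s t hst m hm

end

end Vale.Agent.P261.R2.H823

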