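import Vale.Agent.P261.R2.H823.Cyc
import Vale.Agent.P261.R2.H932.Transfer2
import Vale.Agent.P261.R2.H398.Stmt2

/-!
# P261: the modules `L_k = π_{2k} E_n ⊗ ω^i` and multiplication by `v_h`
-/

namespace Vale.Agent.P261.R2.H823

open MvPowerSeries Vale.Agent.P217 Vale.Agent.P217.H934 Vale.Agent.P261 Vale.Agent.P261.R2.H932
  Topology

variable {p n : ℕ} [Fact p.Prime] {Γ : FormalGroup (ZMod p)} {F : FormalGroup (LT.E0 p n)}

section

variable {G : Type} [Group G] {a : G → St.Pair p n} (ha : St.IsFiniteIndex F a)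

theorem omega_eq (i : ℕ) (k : ℤ) (x : G) (r : LT.E0 p n) :
    St.omegaTwist a i k x r = ww (jj ha x) ^ i * Gn.tw k (jj ha x) r := by
  rw [St.omegaTwist, twist_eq ha]
  rfl

include ha in
theorem omega_module (hn1 : 1 ≤ n) (i : ℕ) (k : ℤ) :
    St.IsMoravaModule a (St.omegaTwist a i k) where
  finite := Module.Finite.self _
  one := fun m => by rw [omega_eq ha, map_one, Gn.tw_one, ww_one, one_pow, one_mul]
  mul := fun x y m => by
    rw [omega_eq ha, omega_eq ha, omega_eq ha, map_mul, Gn.tw_mul, Gn.tw_smul, ww_mul hn1,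
      mul_pow, map_pow, mul_assoc]
  add := fun x m m' => by
    rw [omega_eq ha, omega_eq ha, omega_eq ha, Gn.tw_add, mul_add]
  smul := fun x r m => by
    rw [omega_eq ha, omega_eq ha, smul_eq_mul, smul_eq_mul, Gn.tw_smul]
    change _ = Gn.pi (jj ha x) r * _
    ring

include ha in
/-- `L_k` maps `I_h` into `I_h`. -/
theorem omega_mem (hn1 : 1 ≤ n) (hF : LT.IsUniversal p n Γ F) (hA : LT.HeightAdapted p n F)
    (h : ℕ) (hle : h ≤ n) (i : ℕ) (k : ℤ) (x : G) {r : LT.E0 p n}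
    (hr : r ∈ LT.heightIdeal p n h) : St.omegaTwist a i k x r ∈ LT.heightIdeal p n h := by
  rw [omega_eq ha, Gn.tw]
  refine Ideal.mul_mem_left _ _ (Ideal.mul_mem_left _ _ ?_)
  have h3 := pi_mem' hn1 hF hA h hle 1 (jj ha x) (x := r) (by rwa [pow_one])
  rwa [pow_one] at h3

include ha in
theorem exists_rho_q (hn1 : 1 ≤ n) (hF : LT.IsUniversal p n Γ F) (hA : LT.HeightAdapted p n F)
    (h : ℕ) (hle : h ≤ n) (i : ℕ) (k : ℤ) :
    ∃ ρ : G → LT.E0 p n ⧸ LT.heightIdeal p n h → LT.E0 p n ⧸ LT.heightIdeal p n h,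
      ∀ x r, ρ x (Ideal.Quotient.mk _ r) =
        Ideal.Quotient.mk _ (St.omegaTwist a i k x r) := by
  refine ⟨fun x m => Ideal.Quotient.mk _ (St.omegaTwist a i k x (Quotient.out m)),
    fun x r => ?_⟩
  have hm := omega_module ha hn1 i k
  have h1 : Quotient.out (Ideal.Quotient.mk (LT.heightIdeal p n h) r) - r ∈
      LT.heightIdeal p n h := by
    rw [← Ideal.Quotient.eq]
    exact Quotient.out_eq _
  beta_reduce
  rw [Ideal.Quotient.eq]
  have h2 : St.omegaTwist a i k x (Quotient.out (Ideal.Quotient.mk (LT.heightIdeal p n h) r)) =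
      St.omegaTwist a i k x r + St.omegaTwist a i k x
        (Quotient.out (Ideal.Quotient.mk (LT.heightIdeal p n h) r) - r) := by
    rw [← hm.add]
    congr 1
    ring
  rw [h2, add_sub_cancel_left]
  exact omega_mem ha hn1 hF hA h hle i k x h1

include ha in
/-- **Equivariance.**  Multiplication by `v_h` maps `L_(k - (p^h - 1)) / I_h` to `L_k / I_h`. -/
theorem equiv_v (hF : LT.IsUniversal p n Γ F) (hA : LT.HeightAdapted p n F)
    (h : ℕ) (hle : h ≤ n) (i : ℕ) (k : ℤ) (x : G) (r : LT.E0 p n) :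
    St.omegaTwist a i k x (lead F h * r) -
      lead F h * St.omegaTwist a i (k - ((p ^ h - 1 : ℕ) : ℤ)) x r ∈ LT.heightIdeal p n h := by
  rw [omega_eq ha, omega_eq ha, Gn.tw, Gn.tw, map_mul]
  have h1 := trans hF hA h hle (jj ha x)
  have h2 : (((Gn.isUnit_t (jj ha x)).unit ^ k : (LT.E0 p n)ˣ) : LT.E0 p n) =
      (((Gn.isUnit_t (jj ha x)).unit ^ (k - ((p ^ h - 1 : ℕ) : ℤ)) : (LT.E0 p n)ˣ) :
        LT.E0 p n) * Gn.t (jj ha x) ^ (p ^ h - 1) := by
    have h3 : (Gn.isUnit_t (jj ha x)).unit ^ k =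
        (Gn.isUnit_t (jj ha x)).unit ^ (k - ((p ^ h - 1 : ℕ) : ℤ)) *
          (Gn.isUnit_t (jj ha x)).unit ^ (p ^ h - 1) := by
      rw [← zpow_natCast, ← zpow_add, sub_add_cancel]
    rw [h3, Units.val_mul, Units.val_pow_eq_pow_val]
    rfl
  rw [h2]
  set T := (((Gn.isUnit_t (jj ha x)).unit ^ (k - ((p ^ h - 1 : ℕ) : ℤ)) : (LT.E0 p n)ˣ) :
        LT.E0 p n) with hT
  have h4 : ww (jj ha x) ^ i * (T * Gn.t (jj ha x) ^ (p ^ h - 1) *
      (Gn.pi (jj ha x) (lead F h) * Gn.pi (jj ha x) r)) -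
      lead F h * (ww (jj ha x) ^ i * (T * Gn.pi (jj ha x) r)) =
      (ww (jj ha x) ^ i * T * Gn.pi (jj ha x) r) *
        (Gn.pi (jj ha x) (lead F h) * Gn.t (jj ha x) ^ (p ^ h - 1) - lead F h) := by ring
  rw [h4]
  exact Ideal.mul_mem_left _ _ h1

omit [Group G] in
theorem teich_pow (hn1 : 1 ≤ n) {c : GaloisField p n} {r : ℕ} (hc : c ^ r = 1) (hc0 : c ≠ 0)
    (hr : r ≤ p ^ n - 1) :
    (MvPowerSeries.C (WittVector.teichmuller p c) : LT.E0 p n) ^ (p ^ n - 1 - r) = 1 := by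
  have h1 : c ^ p ^ n = c := galois_pow hn1 _
  have hp : 0 < p ^ n := pow_pos (Fact.out : p.Prime).pos n
  have h2 : c ^ (p ^ n - 1 - r) = 1 := by
    have h3 : c ^ (p ^ n - 1) = 1 := by
      refine mul_right_cancel₀ hc0 ?_
      rw [one_mul, ← pow_succ, show p ^ n - 1 + 1 = p ^ n by omega, h1]
    have h4 : p ^ n - 1 = (p ^ n - 1 - r) + r := by omega
    rw [h4, pow_add, hc, mul_one] at h3
    exact h3
  rw [← map_pow, ← map_pow, h2, map_one, map_one]

include ha in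
/-- if `ω ^ r = 1` then the twist is trivial. -/
theorem omega_of_pow (hn1 : 1 ≤ n) {r : ℕ} (hr : r ≤ p ^ n - 1)
    (h1 : ∀ x, LT.red p n (PowerSeries.coeff 1 (a x).g) ^ r = 1) (k : ℤ) :
    St.omegaTwist a (p ^ n - 1 - r) k = St.twist a k := by
  funext x s
  rw [St.omegaTwist, teich_pow hn1 (h1 x) (red_t_ne_zero (jj ha x)) hr, one_mul]

end

end Vale.Agent.P261.R2.H823
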