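import Vale.Agent.P261.R2.H398.Stmt2

/-!
# P261: finite generation of cohomology along an isomorphism, and the level `0` of the dévissage
-/

namespace Vale.Agent.P261.R2.H823

open MvPowerSeries Vale.Agent.P217 Vale.Agent.P261 Topology

variable {p n : ℕ} [Fact p.Prime]

section

variable {G : Type} {M M' : Type} [AddCommGroup M] [Module (LT.E0 p n) M]
  [AddCommGroup M'] [Module (LT.E0 p n) M']

theorem isCochain_map [TopologicalSpace G] (e : M →ₗ[LT.E0 p n] M') {j : ℕ}
    {c : (Fin j → G) → M} (hc : St.IsCochain p n c) :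
    St.IsCochain p n (fun x => e (c x)) := by
  intro k x
  filter_upwards [hc k x] with y hy
  rw [← map_sub]
  have h1 : e (c y - c x) ∈ (LT.heightIdeal p n n ^ k • (⊤ : Submodule (LT.E0 p n) M)).map e :=
    Submodule.mem_map_of_mem hy
  rw [Submodule.map_smul''] at h1
  exact Submodule.smul_mono le_rfl le_top h1

variable [Group G]

theorem coboundary_map (e : M →+ M') {ρ : G → M → M} {ρ' : G → M' → M'}
    (h : ∀ x m, ρ' x (e m) = e (ρ x m)) (j : ℕ) (c : (Fin j → G) → M) (x : Fin (j + 1) → G) :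
    St.coboundary ρ' j (fun y => e (c y)) x = e (St.coboundary ρ j c x) := by
  rw [St.coboundary, St.coboundary, map_add, map_sum, h]
  congr 1
  exact Finset.sum_congr rfl fun i _ => (map_zsmul e _ _).symm

theorem HFG_equiv [TopologicalSpace G] (e : M ≃ₗ[LT.E0 p n] M') {ρ : G → M → M}
    {ρ' : G → M' → M'} (h : ∀ x m, ρ' x (e m) = e (ρ x m)) {j : ℕ} (H : St.HFG p n ρ j) :
    St.HFG p n ρ' j := by
  obtain ⟨d, es, hes, hall⟩ := H
  have h' : ∀ x m, ρ x (e.symm m) = e.symm (ρ' x m) := by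
    intro x m
    rw [LinearEquiv.eq_symm_apply, ← h, LinearEquiv.apply_symm_apply]
  refine ⟨d, fun i x => e (es i x), fun i => ⟨?_, ?_⟩, ?_⟩
  · exact isCochain_map e.toLinearMap (hes i).1
  · funext x
    have h1 := coboundary_map (e.toLinearMap.toAddMonoidHom) h (j + 1) (es i) x
    refine h1.trans ?_
    rw [(hes i).2]
    exact map_zero _
  · intro c hc hdc
    obtain ⟨b, c', hc', hcc⟩ := hall (fun x => e.symm (c x))
      (isCochain_map e.symm.toLinearMap hc) (by
        funext x
        have h1 := coboundary_map (e.symm.toLinearMap.toAddMonoidHom) h' (j + 1) c x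
        refine h1.trans ?_
        rw [hdc]
        exact map_zero _)
    refine ⟨b, fun x => e (c' x), isCochain_map e.toLinearMap hc', ?_⟩
    funext x
    have h2 := congrArg e (congrFun hcc x)
    rw [LinearEquiv.apply_symm_apply] at h2
    rw [h2, Pi.add_apply, Pi.add_apply, map_add, Finset.sum_apply, Finset.sum_apply, map_sum]
    have h3 := coboundary_map (e.toLinearMap.toAddMonoidHom) h j c' x
    have h4 : e (St.coboundary ρ j c' x) = St.coboundary ρ' j (fun y => e (c' y)) x := h3.symm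
    rw [h4]
    congr 1
    exact Finset.sum_congr rfl fun i _ => by
      rw [Pi.smul_apply, Pi.smul_apply, map_smul]

/-- the level `0`. -/
theorem base_bot [TopologicalSpace G] {ρ₀ : G → LT.E0 p n → LT.E0 p n} {j : ℕ}
    (H : St.HFG p n ρ₀ j)
    (ρ : G → LT.E0 p n ⧸ LT.heightIdeal p n 0 → LT.E0 p n ⧸ LT.heightIdeal p n 0)
    (hρ : ∀ x r, ρ x (Ideal.Quotient.mk _ r) = Ideal.Quotient.mk _ (ρ₀ x r)) :
    St.HFG p n ρ j := by
  have h0 : LT.heightIdeal p n 0 = ⊥ := by rw [LT.heightIdeal, if_pos rfl]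
  have e : ∃ e : LT.E0 p n ≃ₗ[LT.E0 p n] (LT.E0 p n ⧸ LT.heightIdeal p n 0),
      ∀ r, e r = Ideal.Quotient.mk _ r := by
    rw [h0]
    exact ⟨(Submodule.quotEquivOfEqBot (⊥ : Submodule (LT.E0 p n) (LT.E0 p n)) rfl).symm,
      fun r => rfl⟩
  obtain ⟨e, he⟩ := e
  exact HFG_equiv e (fun x m => by rw [he, he, hρ]) H

end

end Vale.Agent.P261.R2.H823
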