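import Vale.Agent.P261.R2.H823.Inv
import Vale.Agent.P261.R2.H288.Step

/-!
# P261: the step of the dévissage, for `H823.inv_final`
-/

namespace Vale.Agent.P261.R2.H823

open MvPowerSeries Vale.Agent.P217 Vale.Agent.P217.H934 Vale.Agent.P261 Vale.Agent.P261.R2.H932
  Topology

/-- one step of the dévissage. -/
theorem stepHFG (p n : ℕ) [Fact p.Prime] : StepHFG p n := by
  intro Γ F hn2 hΓ hF hA G _ _ _ a ha hcont i h j k hh h1 h2 ρ₂ e2
  obtain ⟨ρ₁, e1⟩ := exists_rho_q ha (by omega) hF hA h (by omega) i k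
  obtain ⟨ρ₀, e0⟩ := exists_rho_q ha (by omega) hF hA h (by omega) i
    (k - ((p ^ h - 1 : ℕ) : ℤ))
  exact H288.step_HFG ha (by omega) hΓ hF hA hcont i k h j (by omega) ρ₁ ρ₀ ρ₂ e1 e0 e2
    (h1 ρ₁ e1) (h2 ρ₀ e0)

end Vale.Agent.P261.R2.H823
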