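import Vale.Agent.P261.R2.H823.Facts
import Vale.Agent.P261.R2.H823.Alg
import Vale.Agent.P261.R2.H932.Stmt

/-!
# P261: the cyclic Morava module `E₀ / I_{n-1}` twisted by a character has infinite `H¹`
-/

namespace Vale.Agent.P261.R2.H823

open MvPowerSeries Vale.Agent.P217 Vale.Agent.P217.H934 Vale.Agent.P261.R2.H932 Topology

variable {p n : ℕ} [Fact p.Prime] {Γ : FormalGroup (ZMod p)} {F : FormalGroup (LT.E0 p n)}

/-- the elements of `G_n` acting trivially modulo `𝔪 ^ k`. -/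
def congT (p n : ℕ) [Fact p.Prime] (F : FormalGroup (LT.E0 p n)) (k : ℕ) :
    Subgroup (Gn p n F) where
  carrier := {g | ∀ r, Gn.pi g r - r ∈ LT.heightIdeal p n n ^ k}
  one_mem' := by
    intro r
    have h1 : Gn.pi (1 : Gn p n F) r - r = 0 := sub_self r
    rw [h1]
    exact Ideal.zero_mem _
  mul_mem' := by
    intro g h hg hh r
    have h1 : Gn.pi (g * h) r - r =
        (Gn.pi g (Gn.pi h r) - Gn.pi h r) + (Gn.pi h r - r) := by
      rw [sub_add_sub_cancel]
      rfl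
    rw [h1]
    exact Ideal.add_mem _ (hg _) (hh r)
  inv_mem' := by
    intro g hg r
    have h1 : Gn.pi g (Gn.pi g⁻¹ r) = r := by
      have h2 : Gn.pi g (Gn.pi g⁻¹ r) = Gn.pi (g * g⁻¹) r := rfl
      rw [h2, mul_inv_cancel]
      rfl
    have h3 := hg (Gn.pi g⁻¹ r)
    rw [h1] at h3
    rw [← neg_sub]
    exact Ideal.neg_mem_iff _ |>.2 h3

section

variable (hn1 : 1 ≤ n) (hF : LT.IsUniversal p n Γ F) (hA : LT.HeightAdapted p n F)

include hn1 hF hA

theorem pi_mem' (h : ℕ) (hle : h ≤ n) (k : ℕ) (g : Gn p n F) {x : LT.E0 p n}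
    (hx : x ∈ LT.heightIdeal p n h ^ k) : Gn.pi g x ∈ LT.heightIdeal p n h ^ k := by
  have h1 : (LT.heightIdeal p n h).map
      ((Gn.pi g : RingAut (LT.E0 p n)) : LT.E0 p n →+* LT.E0 p n) ≤ LT.heightIdeal p n h := by
    rw [Ideal.map_le_iff_le_comap]
    exact fun y hy => (mem_of_phi hn1 hF hA (LT.actionGroup p n Γ F) le_rfl h hle (Gn.pi g)
      (by rw [← Gn.range_pi hF]; exact ⟨g, rfl⟩) y).2 hy
  have h2 := Ideal.mem_map_of_mem
    ((Gn.pi g : RingAut (LT.E0 p n)) : LT.E0 p n →+* LT.E0 p n) hx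
  rw [Ideal.map_pow] at h2
  exact Ideal.pow_right_mono h1 _ h2

omit hn1 hF hA in
theorem exists_act' {G : Type*} [Group G] (j : G →* Gn p n F) {I : Ideal (LT.E0 p n)}
    (hI : ∀ (g : Gn p n F), ∀ r ∈ I, Gn.pi g r ∈ I) :
    ∃ a : G →* ((LT.E0 p n ⧸ I) →+* (LT.E0 p n ⧸ I)),
      ∀ g r, a g (Ideal.Quotient.mk _ r) = Ideal.Quotient.mk _ (Gn.pi (j g) r) := by
  have hle' : ∀ g : G, I ≤ I.comap
      ((Gn.pi (j g) : RingAut (LT.E0 p n)) : LT.E0 p n →+* LT.E0 p n) := fun g x hx =>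
    hI (j g) x hx
  refine ⟨{ toFun := fun g => Ideal.quotientMap _ _ (hle' g), map_one' := ?_, map_mul' := ?_ },
    fun g r => rfl⟩
  · refine Ideal.Quotient.ringHom_ext ?_
    ext r
    change Ideal.Quotient.mk I (Gn.pi (j 1) r) = Ideal.Quotient.mk I r
    rw [map_one]
    rfl
  · intro g g'
    refine Ideal.Quotient.ringHom_ext ?_
    ext r
    change Ideal.Quotient.mk I (Gn.pi (j (g * g')) r) =
      Ideal.Quotient.mk I (Gn.pi (j g) (Gn.pi (j g') r))
    rw [map_mul]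
    rfl

omit hF hA in
theorem top_eq_max : LT.heightIdeal p n n = IsLocalRing.maximalIdeal (LT.E0 p n) := by
  ext x
  have h1 := mem_heightIdeal_top (p := p) hn1 x
  have h2 : x ∈ IsLocalRing.maximalIdeal (LT.E0 p n) ↔ red p n x = 0 := by
    rw [CA.maximalIdeal_eq_ker]
    exact RingHom.mem_ker
  rw [h2]
  exact h1

theorem congT_finiteIndex (k : ℕ) : (congT p n F k).FiniteIndex := by
  obtain ⟨b, hb⟩ := exists_act' (MonoidHom.id (Gn p n F))
    (fun g _ hr => pi_mem' hn1 hF hA n le_rfl k g hr)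
  have hQ : Finite (LT.E0 p n ⧸ LT.heightIdeal p n n ^ k) := by
    rw [top_eq_max hn1]
    exact CA.finite_quotient_E0 k
  have hE : Finite ((LT.E0 p n ⧸ LT.heightIdeal p n n ^ k) →+*
      (LT.E0 p n ⧸ LT.heightIdeal p n n ^ k)) :=
    Finite.of_injective (fun f => (f : (LT.E0 p n ⧸ LT.heightIdeal p n n ^ k) →
      (LT.E0 p n ⧸ LT.heightIdeal p n n ^ k))) DFunLike.coe_injective
  have h1 : b.toHomUnits.ker ≤ congT p n F k := by
    intro g hg r
    rw [MonoidHom.mem_ker] at hg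
    have h2 : b g = 1 := by
      rw [← MonoidHom.coe_toHomUnits b g, hg]
      rfl
    have h3 := hb g r
    rw [h2] at h3
    rw [← Ideal.Quotient.eq_zero_iff_mem, map_sub]
    have h4 : Ideal.Quotient.mk (LT.heightIdeal p n n ^ k) (Gn.pi g r) =
      Ideal.Quotient.mk (LT.heightIdeal p n n ^ k) r := h3.symm
    rw [h4, sub_self]
  have h3 : b.toHomUnits.ker.FiniteIndex := inferInstance
  exact Subgroup.finiteIndex_of_le h1

end

section

variable (hn2 : 2 ≤ n) (hΓ : LT.IsHonda p n Γ) (hF : LT.IsUniversal p n Γ F)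
  (hA : LT.HeightAdapted p n F)

include hn2 hΓ hF hA

theorem top_eq' : LT.heightIdeal p n n =
    LT.heightIdeal p n (n - 1) ⊔ Ideal.span {lead F (n - 1)} := by
  have h1 := succ_eq (by omega) hΓ hF hA (n - 1) (by omega)
  rwa [show n - 1 + 1 = n by omega] at h1

theorem mk_mem' (k : ℕ) (x : LT.E0 p n) (hx : x ∈ LT.heightIdeal p n n ^ k) :
    ∃ y, Ideal.Quotient.mk (LT.heightIdeal p n (n - 1)) x =
      Ideal.Quotient.mk (LT.heightIdeal p n (n - 1)) (lead F (n - 1)) ^ k *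
        Ideal.Quotient.mk (LT.heightIdeal p n (n - 1)) y := by
  have h1 := Ideal.mem_map_of_mem (Ideal.Quotient.mk (LT.heightIdeal p n (n - 1))) hx
  rw [Ideal.map_pow, top_eq' hn2 hΓ hF hA, Ideal.map_sup, Ideal.map_quotient_self, bot_sup_eq,
    Ideal.map_span, Set.image_singleton, Ideal.span_singleton_pow,
    Ideal.mem_span_singleton'] at h1
  obtain ⟨y, hy⟩ := h1
  obtain ⟨y, rfl⟩ := Ideal.Quotient.mk_surjective y
  exact ⟨y, by rw [← hy, mul_comm]⟩

theorem red_lead : red p n (lead F (n - 1)) = 0 := by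
  rw [← mem_heightIdeal_top (by omega)]
  change lead F (n - 1) ∈ LT.heightIdeal p n n
  rw [top_eq' hn2 hΓ hF hA]
  exact Ideal.mem_sup_right (Ideal.mem_span_singleton_self _)

theorem red_eq_of_mk_eq {x y : LT.E0 p n}
    (h : Ideal.Quotient.mk (LT.heightIdeal p n (n - 1)) x =
      Ideal.Quotient.mk (LT.heightIdeal p n (n - 1)) y) : red p n x = red p n y := by
  rw [Ideal.Quotient.eq] at h
  have h1 : x - y ∈ LT.heightIdeal p n n := by
    rw [top_eq' hn2 hΓ hF hA]
    exact Ideal.mem_sup_left h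
  have h2 : red p n (x - y) = 0 := (mem_heightIdeal_top (by omega) _).1 h1
  rwa [map_sub, sub_eq_zero] at h2

/-- two powers of the basic crossed homomorphism are not cohomologous on a subgroup of finite
index. -/
theorem key' {G : Type*} [Group G] (j : G →* Gn p n F) (hj : j.range.index ≠ 0)
    (a : G →* ((LT.E0 p n ⧸ LT.heightIdeal p n (n - 1)) →+*
      (LT.E0 p n ⧸ LT.heightIdeal p n (n - 1))))
    (ha : ∀ g r, a g (Ideal.Quotient.mk _ r) = Ideal.Quotient.mk _ (Gn.pi (j g) r))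
    (N : Subgroup G) (hN : N.index ≠ 0) (c : N → LT.E0 p n ⧸ LT.heightIdeal p n (n - 1))
    (hc : ∀ g : N, Ideal.Quotient.mk _ (lead F (n - 1)) *
      a g (Ideal.Quotient.mk _ (lead F (n - 1))) * c g =
        Ideal.Quotient.mk _ (lead F (n - 1)) - a g (Ideal.Quotient.mk _ (lead F (n - 1))))
    (s t : ℕ) (hst : s < t) (m : LT.E0 p n ⧸ LT.heightIdeal p n (n - 1))
    (hm : ∀ g : N, c g ^ p ^ s - c g ^ p ^ t = a g m - m) : False := by
  have hp1 : 1 < p := (Fact.out : p.Prime).one_lt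
  have hprime : (LT.heightIdeal p n (n - 1)).IsPrime :=
    isPrime_heightIdeal (by omega) (n - 1) (by omega)
  have hdom : IsDomain (LT.E0 p n ⧸ LT.heightIdeal p n (n - 1)) := Ideal.Quotient.isDomain _
  have hchar : CharP (LT.E0 p n ⧸ LT.heightIdeal p n (n - 1)) p := by
    refine (CharP.charP_iff_prime_eq_zero (Fact.out : p.Prime)).2 ?_
    rw [← map_natCast (Ideal.Quotient.mk (LT.heightIdeal p n (n - 1))) p,
      Ideal.Quotient.eq_zero_iff_mem, LT.heightIdeal, if_neg (by omega)]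
    exact Ideal.subset_span (Or.inl rfl)
  obtain ⟨m, rfl⟩ := Ideal.Quotient.mk_surjective m
  set u := lead F (n - 1) with hu
  have hindex : (N.map j).index ≠ 0 := by
    rw [Subgroup.index_map]
    exact mul_ne_zero (ne_zero_of_dvd_ne_zero hN (Subgroup.index_dvd_of_le le_sup_left)) hj
  obtain ⟨c0, -, hc0⟩ := frac (by omega) hΓ hF hA (N.map j) hindex (n - 1) (by omega)
    (by omega) (u ^ (p ^ t - p ^ s) - 1 - m * u ^ p ^ t) (u ^ p ^ t)
    (fun h => lead_notMem (by omega) hΓ hF hA (n - 1) (by omega)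
      (hprime.mem_of_pow_mem _ h)) (by
      rintro ⟨_, g, hg, rfl⟩
      have h1 := fraction (R := LT.E0 p n ⧸ LT.heightIdeal p n (n - 1))
        (a := fun g : N => a (g : G)) (u := Ideal.Quotient.mk _ u) p hc hst.le hm ⟨g, hg⟩
      rw [← Ideal.Quotient.eq_zero_iff_mem, ← h1]
      simp only [map_sub, map_mul, map_pow, map_one, ha])
  have h2 : red p n (u ^ (p ^ t - p ^ s) - 1 - m * u ^ p ^ t - c0 * u ^ p ^ t) = 0 := by
    rw [← mem_heightIdeal_top (by omega)]
    change _ ∈ LT.heightIdeal p n n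
    rw [top_eq' hn2 hΓ hF hA]
    exact Ideal.mem_sup_left hc0
  have hlt : p ^ s < p ^ t := Nat.pow_lt_pow_right hp1 hst
  rw [map_sub, map_sub, map_sub, map_mul, map_mul, map_pow, map_pow, map_one, hu,
    red_lead hn2 hΓ hF hA, zero_pow (by omega), zero_pow (by omega)] at h2
  simp at h2

/-- On the elements acting trivially modulo `𝔪 ²` the twist is trivial. -/
theorem ww_eq_one {x : Gn p n F} (hx : x ∈ congT p n F 2) :
    ww x ^ (p ^ n - p ^ (n - 1)) = 1 := by
  have hprime : (LT.heightIdeal p n (n - 1)).IsPrime :=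
    isPrime_heightIdeal (by omega) (n - 1) (by omega)
  have hdom : IsDomain (LT.E0 p n ⧸ LT.heightIdeal p n (n - 1)) := Ideal.Quotient.isDomain _
  set v := Ideal.Quotient.mk (LT.heightIdeal p n (n - 1)) (lead F (n - 1)) with hv
  have hv0 : v ≠ 0 := fun h => lead_notMem (by omega) hΓ hF hA (n - 1) (by omega)
    (Ideal.Quotient.eq_zero_iff_mem.1 h)
  obtain ⟨y, hy⟩ := mk_mem' hn2 hΓ hF hA 2 _ (hx (lead F (n - 1)))
  have h1 := Ideal.Quotient.eq_zero_iff_mem.2 (trans hF hA (n - 1) (by omega) x)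
  rw [map_sub, map_mul, ← hv] at h1
  rw [map_sub, ← hv] at hy
  have h2 : Ideal.Quotient.mk (LT.heightIdeal p n (n - 1))
      (Gn.t x ^ (p ^ (n - 1) - 1)) =
        1 - v * Ideal.Quotient.mk _ (y * Gn.t x ^ (p ^ (n - 1) - 1)) := by
    refine mul_left_cancel₀ hv0 ?_
    rw [map_mul]
    linear_combination h1 - Ideal.Quotient.mk (LT.heightIdeal p n (n - 1))
      (Gn.t x ^ (p ^ (n - 1) - 1)) * hy
  have h3 : red p n (Gn.t x ^ (p ^ (n - 1) - 1)) = 1 := by
    have h4 : Ideal.Quotient.mk (LT.heightIdeal p n (n - 1)) (Gn.t x ^ (p ^ (n - 1) - 1)) =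
        Ideal.Quotient.mk (LT.heightIdeal p n (n - 1))
          (1 - lead F (n - 1) * (y * Gn.t x ^ (p ^ (n - 1) - 1))) := by
      rw [h2, hv, ← map_mul, ← map_one (Ideal.Quotient.mk _), ← map_sub]
    rw [red_eq_of_mk_eq hn2 hΓ hF hA h4, map_sub, map_one, map_mul, red_lead hn2 hΓ hF hA,
      zero_mul, sub_zero]
  rw [map_pow] at h3
  have h4 : red p n (Gn.t x) ^ p ^ n = red p n (Gn.t x) := galois_pow (by omega) _
  have hp0 : 0 < p ^ (n - 1) := pow_pos (Fact.out : p.Prime).pos _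
  have hle : p ^ (n - 1) ≤ p ^ n := Nat.pow_le_pow_right (Fact.out : p.Prime).pos (by omega)
  have h5 : red p n (Gn.t x) ^ (p ^ n - p ^ (n - 1)) = 1 := by
    refine mul_right_cancel₀ (red_t_ne_zero x) ?_
    rw [one_mul]
    conv_rhs => rw [← h4]
    have h6 : p ^ n = (p ^ n - p ^ (n - 1)) + 1 + (p ^ (n - 1) - 1) := by omega
    conv_rhs => rw [h6, pow_add, h3, mul_one, pow_succ]
  rw [ww]
  have h7 : ∀ (c : GaloisField p n) (k : ℕ), tch p n c ^ k = tch p n (c ^ k) := by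
    intro c k
    induction k with
    | zero => rw [pow_zero, pow_zero, tch_one]
    | succ k ih => rw [pow_succ, pow_succ, ih, tch_mul]
  rw [h7, h5, tch_one]

omit hΓ in
/-- the twisted action on `E₀ / I_{n-1}`. -/
theorem exists_rho {G : Type*} [Group G] (j : G →* Gn p n F) :
    ∃ ρ : G → LT.E0 p n ⧸ LT.heightIdeal p n (n - 1) → LT.E0 p n ⧸ LT.heightIdeal p n (n - 1),
      (∀ x r, ρ x (Ideal.Quotient.mk _ r) =
        Ideal.Quotient.mk _ (ww (j x) ^ (p ^ n - p ^ (n - 1)) * Gn.pi (j x) r)) ∧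
      (∀ m, ρ 1 m = m) ∧ (∀ x y m, ρ (x * y) m = ρ x (ρ y m)) ∧
      (∀ x m m', ρ x (m + m') = ρ x m + ρ x m') ∧
      ∀ x (r : LT.E0 p n) m, ρ x (r • m) = Gn.pi (j x) r • ρ x m := by
  have hn1 : 1 ≤ n := by omega
  obtain ⟨a, ha⟩ := exists_act' j (I := LT.heightIdeal p n (n - 1)) (fun g r hr => by
    have h1 := pi_mem' hn1 hF hA (n - 1) (by omega) 1 g (x := r) (by rwa [pow_one])
    rwa [pow_one] at h1)
  have hρ : ∀ x r, Ideal.Quotient.mk (LT.heightIdeal p n (n - 1))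
      (ww (j x) ^ (p ^ n - p ^ (n - 1))) * a x (Ideal.Quotient.mk _ r) =
        Ideal.Quotient.mk _ (ww (j x) ^ (p ^ n - p ^ (n - 1)) * Gn.pi (j x) r) := by
    intro x r
    rw [ha, ← map_mul]
  refine ⟨fun x m => Ideal.Quotient.mk _ (ww (j x) ^ (p ^ n - p ^ (n - 1))) * a x m,
    hρ, ?_, ?_, ?_, ?_⟩
  · intro m
    obtain ⟨m, rfl⟩ := Ideal.Quotient.mk_surjective m
    beta_reduce
    rw [hρ, map_one, ww_one, one_pow, one_mul]
    rfl
  · intro x y m
    obtain ⟨m, rfl⟩ := Ideal.Quotient.mk_surjective m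
    beta_reduce
    rw [hρ, hρ, hρ, map_mul j, ww_mul hn1, mul_pow, map_mul (Gn.pi (j x)),
      map_pow (Gn.pi (j x)), mul_assoc]
    rfl
  · intro x m m'
    beta_reduce
    rw [map_add, mul_add]
  · intro x r m
    obtain ⟨m, rfl⟩ := Ideal.Quotient.mk_surjective m
    have h1 : ∀ r m : LT.E0 p n, r • Ideal.Quotient.mk (LT.heightIdeal p n (n - 1)) m =
      Ideal.Quotient.mk (LT.heightIdeal p n (n - 1)) (r * m) := fun _ _ => rfl
    beta_reduce
    rw [h1, hρ, hρ, h1, map_mul (Gn.pi (j x))]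
    congr 1
    ring

/-- **The twisted cyclic module `E₀ / I_{n-1}` has infinite `H¹`** for every group mapping onto a
subgroup of finite index of `G_n`. -/
theorem cyc {G : Type} [Group G] (j : G →* Gn p n F) (hj : j.range.index ≠ 0)
    (ρ : G → LT.E0 p n ⧸ LT.heightIdeal p n (n - 1) → LT.E0 p n ⧸ LT.heightIdeal p n (n - 1))
    (hρ : ∀ x r, ρ x (Ideal.Quotient.mk _ r) =
      Ideal.Quotient.mk _ (ww (j x) ^ (p ^ n - p ^ (n - 1)) * Gn.pi (j x) r))
    [TopologicalSpace G] (hcont : ∀ k, ∀ᶠ x : G in 𝓝 (1 : G), ∀ r,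
      Gn.pi (j x) r - r ∈ LT.heightIdeal p n n ^ k) :
    ¬ Vale.Agent.P261.St.H1Finite p n ρ := by
  classical
  have hn1 : 1 ≤ n := by omega
  have hp1 : 1 < p := (Fact.out : p.Prime).one_lt
  have hprime : (LT.heightIdeal p n (n - 1)).IsPrime :=
    isPrime_heightIdeal (by omega) (n - 1) (by omega)
  have hdom : IsDomain (LT.E0 p n ⧸ LT.heightIdeal p n (n - 1)) := Ideal.Quotient.isDomain _
  have hchar : CharP (LT.E0 p n ⧸ LT.heightIdeal p n (n - 1)) p := by
    refine (CharP.charP_iff_prime_eq_zero (Fact.out : p.Prime)).2 ?_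
    rw [← map_natCast (Ideal.Quotient.mk (LT.heightIdeal p n (n - 1))) p,
      Ideal.Quotient.eq_zero_iff_mem, LT.heightIdeal, if_neg (by omega)]
    exact Ideal.subset_span (Or.inl rfl)
  obtain ⟨a, ha⟩ := exists_act' j (I := LT.heightIdeal p n (n - 1)) (fun g r hr => by
    have h1 := pi_mem' hn1 hF hA (n - 1) (by omega) 1 g (x := r) (by rwa [pow_one])
    rwa [pow_one] at h1)
  set e := p ^ n - p ^ (n - 1) with he
  have hρ' : ∀ x m, ρ x m = Ideal.Quotient.mk (LT.heightIdeal p n (n - 1)) (ww (j x) ^ e) * a x m := by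
    intro x m
    obtain ⟨m, rfl⟩ := Ideal.Quotient.mk_surjective m
    rw [hρ, ha, ← map_mul]
  set V := Ideal.Quotient.mk (LT.heightIdeal p n (n - 1)) (lead F (n - 1)) with hV
  have hVJ : lead F (n - 1) ∈ LT.heightIdeal p n n := by
    rw [top_eq' hn2 hΓ hF hA]
    exact Ideal.mem_sup_right (Ideal.mem_span_singleton_self _)
  have hV0 : V ≠ 0 := fun h => lead_notMem hn1 hΓ hF hA (n - 1) (by omega)
    (Ideal.Quotient.eq_zero_iff_mem.1 h)
  set q := p ^ (n - 1) - 1 with hq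
  have hT : ∀ x, a x V * Ideal.Quotient.mk (LT.heightIdeal p n (n - 1)) (Gn.t (j x) ^ q) = V := by
    intro x
    have h1 := Ideal.Quotient.eq_zero_iff_mem.2 (trans hF hA (n - 1) (by omega) (j x))
    rw [map_sub, map_mul, sub_eq_zero] at h1
    rw [hV, ha]
    exact h1
  -- the basic crossed homomorphism
  have hex : ∀ x : G, ∃ y, V * y = Ideal.Quotient.mk (LT.heightIdeal p n (n - 1)) (ww (j x) ^ e * Gn.t (j x) ^ q - 1) := by
    intro x
    have hp0 : 0 < p ^ (n - 1) := pow_pos (Fact.out : p.Prime).pos _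
    have hle : p ^ (n - 1) ≤ p ^ n := Nat.pow_le_pow_right (Fact.out : p.Prime).pos (by omega)
    have h1 : ww (j x) ^ e * Gn.t (j x) ^ q - 1 ∈ LT.heightIdeal p n n ^ 1 := by
      rw [pow_one]
      refine (mem_heightIdeal_top hn1 _).2 ?_
      rw [map_sub, map_mul, map_pow, map_pow, red_ww, map_one, sub_eq_zero, ← pow_add]
      refine mul_right_cancel₀ (red_t_ne_zero (j x)) ?_
      rw [one_mul, ← pow_succ, show e + q + 1 = p ^ n by omega]
      exact galois_pow hn1 _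
    obtain ⟨y, hy⟩ := mk_mem' hn2 hΓ hF hA 1 _ h1
    exact ⟨_, by rw [hy, pow_one]⟩
  choose c hc using hex
  have hcm : ∀ x y, c (x * y) = c x + ρ x (c y) := by
    intro x y
    refine mul_left_cancel₀ hV0 ?_
    have h1 := congrArg (a x) (hc y)
    have h2 := hc x
    have h3 := hc (x * y)
    have h4 := hT x
    rw [map_mul, ha x (ww (j y) ^ e * Gn.t (j y) ^ q - 1)] at h1
    rw [hρ']
    rw [map_mul j, ww_mul hn1, Gn.t_mul, mul_pow, mul_pow] at h3
    rw [h3, mul_add, h2]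
    simp only [map_sub, map_mul, map_one] at h1 ⊢
    simp only [map_pow] at h1 h4 ⊢
    linear_combination (Ideal.Quotient.mk (LT.heightIdeal p n (n - 1)) (ww (j x)) ^ e * a x (c y)) * h4 -
      (Ideal.Quotient.mk (LT.heightIdeal p n (n - 1)) (ww (j x)) ^ e * Ideal.Quotient.mk (LT.heightIdeal p n (n - 1)) (Gn.t (j x)) ^ q) * h1
  have hww : ∀ (x : G) (s : ℕ), Ideal.Quotient.mk (LT.heightIdeal p n (n - 1)) (ww (j x) ^ e) ^ p ^ (n * s) =
      Ideal.Quotient.mk (LT.heightIdeal p n (n - 1)) (ww (j x) ^ e) := by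
    intro x s
    rw [← map_pow]
    congr 1
    induction s with
    | zero => rw [mul_zero, pow_zero, pow_one]
    | succ s ih => rw [mul_add, mul_one, pow_add, pow_mul, ih, ← pow_mul, mul_comm e, pow_mul,
        ww_pow hn1]
  have hcs : ∀ (s : ℕ) (x y : G), c (x * y) ^ p ^ (n * s) =
      c x ^ p ^ (n * s) + ρ x (c y ^ p ^ (n * s)) := by
    intro s x y
    rw [hcm, add_pow_char_pow, hρ', hρ', mul_pow, hww, map_pow (a x)]
  -- on the congruence subgroups
  have htr : ∀ x : G, j x ∈ congT p n F 2 → ∃ d, a x V = V * (1 + V * d) ∧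
      IsUnit (1 + V * d) := by
    intro x hx
    obtain ⟨y, hy⟩ := mk_mem' hn2 hΓ hF hA 2 _ (hx (lead F (n - 1)))
    rw [map_sub, ← ha, ← hV] at hy
    refine ⟨Ideal.Quotient.mk (LT.heightIdeal p n (n - 1)) y, ?_, ?_⟩
    · linear_combination hy
    · rw [hV, ← map_mul, ← map_one (Ideal.Quotient.mk (LT.heightIdeal p n (n - 1))), ← map_add]
      refine IsUnit.map _ (CA.isUnit_iff_rd.2 ?_)
      change red p n (1 + lead F (n - 1) * y) ≠ 0
      rw [map_add, map_mul, map_one, red_lead hn2 hΓ hF hA, zero_mul, add_zero]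
      exact one_ne_zero
  have hcN : ∀ x : G, j x ∈ congT p n F 2 → V * a x V * c x = V - a x V := by
    intro x hx
    have h1 := hc x
    have h2 := hT x
    rw [ww_eq_one hn2 hΓ hF hA hx, one_mul, map_sub, map_one] at h1
    linear_combination (a x V) * h1 + h2
  set Jb : Ideal (LT.E0 p n ⧸ LT.heightIdeal p n (n - 1)) := (LT.heightIdeal p n n).map (Ideal.Quotient.mk (LT.heightIdeal p n (n - 1))) with hJb
  have hVJb : V ∈ Jb := Ideal.mem_map_of_mem _ hVJ
  have hest : ∀ (k : ℕ) (x : G), j x ∈ congT p n F 2 → j x ∈ congT p n F (k + 2) →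
      c x ∈ Jb ^ k := by
    intro k x hx2 hx
    obtain ⟨y, hy⟩ := mk_mem' hn2 hΓ hF hA (k + 2) _ (hx (lead F (n - 1)))
    rw [map_sub, ← ha, ← hV] at hy
    obtain ⟨d, h1, v, hv⟩ := htr x hx2
    have h3 := hcN x hx2
    rw [← hv] at h1
    rw [h1] at hy h3
    have h4 : (v : LT.E0 p n ⧸ LT.heightIdeal p n (n - 1)) * c x = -(V ^ k * Ideal.Quotient.mk (LT.heightIdeal p n (n - 1)) y) := by
      refine mul_left_cancel₀ (mul_ne_zero hV0 hV0) ?_
      linear_combination h3 - hy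
    have h6 : c x = V ^ k * (-((↑v⁻¹ : LT.E0 p n ⧸ LT.heightIdeal p n (n - 1)) * Ideal.Quotient.mk (LT.heightIdeal p n (n - 1)) y)) := by
      calc c x = (↑v⁻¹ : LT.E0 p n ⧸ LT.heightIdeal p n (n - 1)) * (↑v * c x) := by
            rw [← mul_assoc, Units.inv_mul, one_mul]
        _ = _ := by rw [h4]; ring
    rw [h6]
    exact Ideal.mul_mem_right _ _ (Ideal.pow_mem_pow hVJb k)
  have hC : ∀ s : ℕ, Vale.Agent.P261.St.IsCocycle p n ρ (fun x => c x ^ p ^ (n * s)) := by
    intro s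
    refine ⟨fun x y => hcs s x y, fun k => ?_⟩
    filter_upwards [hcont (k + 2), hcont 2] with x hx hx2
    have h1 : c x ^ p ^ (n * s) ∈ Jb ^ k :=
      Ideal.pow_mem_of_mem _ (hest k x hx2 hx) _ (pow_pos (Fact.out : p.Prime).pos _)
    rw [hJb, ← Ideal.map_pow] at h1
    obtain ⟨r, hr, h2⟩ :=
      (Ideal.mem_map_iff_of_surjective _ Ideal.Quotient.mk_surjective).1 h1
    rw [← h2]
    have h3 : Ideal.Quotient.mk (LT.heightIdeal p n (n - 1)) r = r • Ideal.Quotient.mk (LT.heightIdeal p n (n - 1)) 1 := by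
      have h4 : r • Ideal.Quotient.mk (LT.heightIdeal p n (n - 1)) 1 = Ideal.Quotient.mk (LT.heightIdeal p n (n - 1)) (r * 1) := rfl
      rw [h4, mul_one]
    rw [h3]
    exact Submodule.smul_mem_smul hr Submodule.mem_top
  rintro ⟨S, hSfin, -, hS⟩
  choose f hfS hf using fun s => hS _ (hC s)
  obtain ⟨s, t, hst, hfst⟩ : ∃ s t, s < t ∧ f s = f t := by
    have := hSfin.to_subtype
    obtain ⟨s, t, hne, he⟩ :=
      Finite.exists_ne_map_eq_of_infinite (fun s => (⟨f s, hfS s⟩ : S))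
    have he' : f s = f t := congrArg Subtype.val he
    rcases lt_or_gt_of_ne hne with h | h
    · exact ⟨s, t, h, he'⟩
    · exact ⟨t, s, h, he'.symm⟩
  obtain ⟨m1, hm1⟩ := hf s
  obtain ⟨m2, hm2⟩ := hf t
  have hfi := congT_finiteIndex hn1 hF hA 2
  have hN : ((congT p n F 2).comap j).index ≠ 0 := by
    rw [Subgroup.index_comap]
    exact (Subgroup.instFiniteIndex_subgroupOf (congT p n F 2) j.range).index_ne_zero
  refine key' hn2 hΓ hF hA j hj a ha ((congT p n F 2).comap j) hN (fun g => c g)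
    (fun g => hcN g g.2) (n * s) (n * t) (Nat.mul_lt_mul_of_pos_left hst (by omega)) (m1 - m2)
    fun g => ?_
  have h1 := hm1 (g : G)
  have h2 := hm2 (g : G)
  rw [Pi.sub_apply, hρ', ww_eq_one hn2 hΓ hF hA g.2, map_one, one_mul] at h1 h2
  rw [map_sub]
  rw [← hfst] at h2
  linear_combination h1 - h2

end

end Vale.Agent.P261.R2.H823
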