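import Vale.Agent.P261.R2.H86.E0
import Vale.Agent.P261.R2.H932.Asm

/-!
# P261: the Teichmüller character and the transformation law of `v_h`

`v_h = lead F h` is the coefficient of `X ^ (p ^ h)` in `[p]_F(X)`, `v_0 = p`.
-/

namespace Vale.Agent.P261.R2.H823

open MvPowerSeries Vale.Agent.P217 Vale.Agent.P217.H934 Vale.Agent.P261.R2.H932 Topology

variable {p n : ℕ} [Fact p.Prime] {Γ : FormalGroup (ZMod p)} {F : FormalGroup (LT.E0 p n)}

/-- the Teichmüller representative of the residue of the leading coefficient. -/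
noncomputable def ww (x : Gn p n F) : LT.E0 p n := tch p n (red p n (Gn.t x))

theorem ww_pow (hn1 : 1 ≤ n) (x : Gn p n F) : ww x ^ p ^ n = ww x := tch_pow hn1 _

theorem red_ww (x : Gn p n F) : red p n (ww x) = red p n (Gn.t x) := red_tch _

theorem phi_tch (hn1 : 1 ≤ n) (φ : RingAut (LT.E0 p n)) (m : LT.E0 p n) :
    φ (tch p n (red p n m)) = tch p n (red p n (φ m)) := by
  obtain ⟨σ, hσ, -⟩ := AC.exists_unique_residue φ
  have hs : ∀ x, red p n (φ x) = σ (red p n x) := fun x => RingHom.congr_fun hσ x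
  refine H86.eq_of_pow_eq hn1 ?_ (tch_pow hn1 _) ?_
  · rw [← map_pow, tch_pow hn1]
  · rw [hs, red_tch, ← hs, red_tch]

/-- (F1) `w(xy) = w(x) φ_x(w(y))`. -/
theorem ww_mul (hn1 : 1 ≤ n) (x y : Gn p n F) : ww (x * y) = ww x * Gn.pi x (ww y) := by
  rw [ww, Gn.t_mul, map_mul, tch_mul, ww, ww, phi_tch hn1]

theorem ww_one : ww (1 : Gn p n F) = 1 := by
  rw [ww, Gn.t_one, map_one, tch_one]

theorem red_t_ne_zero (x : Gn p n F) : red p n (Gn.t x) ≠ 0 :=
  (CA.isUnit_iff_rd (p := p)).1 (Gn.isUnit_t x)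

theorem isUnit_ww (x : Gn p n F) : IsUnit (ww x) := by
  refine CA.isUnit_iff_rd.2 ?_
  have h1 := red_ww x
  change red p n (ww x) ≠ 0
  rw [h1]
  exact red_t_ne_zero x

theorem lead_zero : lead F 0 = (p : LT.E0 p n) := by
  rw [lead, pow_zero]
  exact C0.coeff_one_multSeries p

/-- (F2) `φ_x(v_h) t(x) ^ (p ^ h - 1) = v_h` modulo `I_h`. -/
theorem trans (hF : LT.IsUniversal p n Γ F) (hA : LT.HeightAdapted p n F) (h : ℕ) (hle : h ≤ n)
    (x : Gn p n F) :
    Gn.pi x (lead F h) * Gn.t x ^ (p ^ h - 1) - lead F h ∈ LT.heightIdeal p n h := by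
  rcases Nat.eq_zero_or_pos h with rfl | hh
  · rw [lead_zero, map_natCast, pow_zero, Nat.sub_self, pow_zero, mul_one, sub_self]
    exact Ideal.zero_mem _
  · change _ ∈ P217.heightIdeal p n h
    rw [mem_heightIdeal_iff h hh hle]
    have h1 := trans_law (LTC.isUniversal_iff.1 hF) (LTC.heightAdapted_iff.1 hA) h hh hle
      (Gn.pi x) x.1.2 x.iso
    have h2 : IsUnit (piH p n h hh hle (PowerSeries.coeff 1 x.1.2)) :=
      (Gn.isUnit_t x).map (piH p n h hh hle)
    have hp : 0 < p ^ h := pow_pos (Fact.out : p.Prime).pos h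
    rw [map_sub, map_mul, map_pow]
    refine h2.mul_right_injective ?_
    change piH p n h hh hle (PowerSeries.coeff 1 x.1.2) *
      (piH p n h hh hle (Gn.pi x (lead F h)) *
        piH p n h hh hle (PowerSeries.coeff 1 x.1.2) ^ (p ^ h - 1) -
          piH p n h hh hle (lead F h)) = piH p n h hh hle (PowerSeries.coeff 1 x.1.2) * 0
    rw [mul_zero, mul_sub, h1]
    have h3 : piH p n h hh hle (PowerSeries.coeff 1 x.1.2) ^ p ^ h =
        piH p n h hh hle (PowerSeries.coeff 1 x.1.2) *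
          piH p n h hh hle (PowerSeries.coeff 1 x.1.2) ^ (p ^ h - 1) := by
      rw [← pow_succ']
      congr 1
      omega
    rw [h3]
    ring

theorem succ_eq_X (h : ℕ) (hh : 1 ≤ h) (hlt : h < n) : LT.heightIdeal p n (h + 1) =
    LT.heightIdeal p n h ⊔ Ideal.span {(X ⟨h - 1, by omega⟩ : LT.E0 p n)} := by
  rw [LT.heightIdeal, LT.heightIdeal, if_neg (by omega), if_neg (by omega), ← Ideal.span_union]
  congr 1
  ext x
  simp only [Set.mem_union, Set.mem_singleton_iff, Set.mem_ofPred_eq]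
  constructor
  · rintro (h | ⟨i, hi, rfl⟩)
    · exact Or.inl (Or.inl h)
    · by_cases h2 : (i : ℕ) + 1 < h
      · exact Or.inl (Or.inr ⟨i, h2, rfl⟩)
      · refine Or.inr ?_
        congr 1
        ext
        change (i : ℕ) = h - 1
        omega
  · rintro ((h | ⟨i, hi, rfl⟩) | h)
    · exact Or.inl h
    · exact Or.inr ⟨i, by omega, rfl⟩
    · exact Or.inr ⟨_, by simp only; omega, h⟩

section

variable (hn1 : 1 ≤ n) (hΓ : LT.IsHonda p n Γ) (hF : LT.IsUniversal p n Γ F)
  (hA : LT.HeightAdapted p n F)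

include hn1 hΓ hF hA

/-- (F3) `I_(h+1) = I_h + (v_h)`. -/
theorem succ_eq (h : ℕ) (hlt : h < n) : LT.heightIdeal p n (h + 1) =
    LT.heightIdeal p n h ⊔ Ideal.span {lead F h} := by
  rcases Nat.eq_zero_or_pos h with rfl | hh
  · rw [lead_zero]
    have h1 : LT.heightIdeal p n (0 + 1) = Ideal.span {(p : LT.E0 p n)} := H86.heightIdeal_one
    rw [h1, LT.heightIdeal, if_pos rfl, bot_sup_eq]
  · refine le_antisymm ?_ ?_
    · rw [succ_eq_X h hh hlt]
      refine sup_le le_sup_left ?_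
      rw [Ideal.span_singleton_le_iff_mem]
      obtain ⟨e, he, hle⟩ := piH_lead hn1 (LTC.isHonda_iff.1 hΓ) (LTC.isUniversal_iff.1 hF)
        (LTC.heightAdapted_iff.1 hA) h hh hlt
      obtain ⟨v, hv⟩ := he
      obtain ⟨e', he'⟩ := piH_surjective (p := p) h hh hlt.le (↑v⁻¹ : _)
      have h2 : (X ⟨h - 1, by omega⟩ : LT.E0 p n) = X (embH n h hh hlt.le
          (⟨0, Nat.sub_pos_of_lt hlt⟩ : Fin (n - h))) := by
        congr 1
        ext
        change h - 1 = 0 + (h - 1)
        omega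
      have h3 : (X ⟨h - 1, by omega⟩ : LT.E0 p n) - e' * lead F h ∈ P217.heightIdeal p n h := by
        rw [mem_heightIdeal_iff h hh hlt.le, map_sub, map_mul, h2, piH_X_emb, hle, he', ← hv,
          ← mul_assoc, Units.inv_mul, one_mul, sub_self]
      have h4 : (X ⟨h - 1, by omega⟩ : LT.E0 p n) =
          ((X ⟨h - 1, by omega⟩ : LT.E0 p n) - e' * lead F h) + e' * lead F h := by ring
      rw [h4]
      exact Ideal.add_mem _ (Ideal.mem_sup_left h3)
        (Ideal.mul_mem_left _ _ (Ideal.mem_sup_right (Ideal.mem_span_singleton_self _)))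
    · refine sup_le (H260.heightIdeal_mono (Nat.le_succ h)) ?_
      rw [Ideal.span_singleton_le_iff_mem]
      exact coeff_low (LTC.heightAdapted_iff.1 hA) (h + 1) (by omega) (by omega) _
        (Nat.pow_lt_pow_right (Fact.out : p.Prime).one_lt (Nat.lt_succ_self h))

theorem lead_notMem (h : ℕ) (hlt : h < n) : lead F h ∉ LT.heightIdeal p n h := by
  intro h0
  rcases Nat.eq_zero_or_pos h with rfl | hh
  · rw [lead_zero, LT.heightIdeal, if_pos rfl, Ideal.mem_bot] at h0
    exact H86.p_ne_zero h0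
  · obtain ⟨e, he, hle⟩ := piH_lead hn1 (LTC.isHonda_iff.1 hΓ) (LTC.isUniversal_iff.1 hF)
      (LTC.heightAdapted_iff.1 hA) h hh hlt
    have h1 : lead F h ∈ P217.heightIdeal p n h := h0
    rw [mem_heightIdeal_iff h hh hlt.le, hle] at h1
    exact (prime_X (p := p) hn1 h hh hlt).ne_zero ((he.mul_right_eq_zero).1 h1)

end

end Vale.Agent.P261.R2.H823
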