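import Vale.Agent.P261.R2.H823.Sharp
import Vale.Agent.P261.R2.H823.WinT
import Vale.Agent.P261.R2.H823.Bot

/-!
# P261: invertible Morava modules which are not of finite type, assembly
-/

namespace Vale.Agent.P261.R2.H823

open MvPowerSeries Vale.Agent.P217 Vale.Agent.P217.H934 Vale.Agent.P261 Vale.Agent.P261.R2.H932
  Topology

theorem exists_r {N : ℕ} (hN : 1 ≤ N) (k : ℤ) : ∃ r : ℕ, 1 ≤ r ∧ r ≤ N ∧ (N : ℤ) ∣ k - r := by
  have h0 : (0 : ℤ) < N := by exact_mod_cast hN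
  have h1 := Int.emod_nonneg (k - 1) h0.ne'
  have h2 := Int.emod_lt_of_pos (k - 1) h0
  refine ⟨((k - 1) % N + 1).toNat, ?_, ?_, ?_⟩
  · omega
  · omega
  · rw [Int.toNat_of_nonneg (by omega)]
    have h3 : k - ((k - 1) % N + 1) = (k - 1) - (k - 1) % N := by ring
    rw [h3]
    exact Int.dvd_self_sub_emod

/-- `H^(j+1)(G; π_{2k} E_n / I_h ⊗ ω^i)` is finitely generated. -/
def LevelFG {p n : ℕ} [Fact p.Prime] {G : Type} [Group G] [TopologicalSpace G]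
    (a : G → St.Pair p n) (i h j : ℕ) (k : ℤ) : Prop :=
  ∀ ρ : G → LT.E0 p n ⧸ LT.heightIdeal p n h → LT.E0 p n ⧸ LT.heightIdeal p n h,
    (∀ x r, ρ x (Ideal.Quotient.mk _ r) = Ideal.Quotient.mk _ (St.omegaTwist a i k x r)) →
      St.HFG p n ρ j

/-- one step of the dévissage. -/
def StepHFG (p n : ℕ) [Fact p.Prime] : Prop :=
  ∀ (Γ : FormalGroup (ZMod p)) (F : FormalGroup (LT.E0 p n)), 2 ≤ n → LT.IsHonda p n Γ →
    LT.IsUniversal p n Γ F → LT.HeightAdapted p n F → ∀ (G : Type) [Group G] [TopologicalSpace G]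
    [ContinuousMul G] (a : G → St.Pair p n), St.IsFiniteIndex F a →
    (∀ K, ∀ᶠ x in 𝓝 (1 : G), PowerSeries.coeff 1 (a x).g - 1 ∈ LT.heightIdeal p n n ^ K ∧
      ∀ r, (a x).φ r - r ∈ LT.heightIdeal p n n ^ K) →
    ∀ (i h j : ℕ) (k : ℤ), h + 1 < n → LevelFG a i h j k →
      LevelFG a i h (j + 1) (k - ((p ^ h - 1 : ℕ) : ℤ)) → LevelFG a i (h + 1) j k

variable {p n : ℕ} [Fact p.Prime] {Γ : FormalGroup (ZMod p)} {F : FormalGroup (LT.E0 p n)}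

/-- the assembly. -/
theorem inv_final (S : StepHFG p n) (hn2 : 2 ≤ n) (hΓ : LT.IsHonda p n Γ)
    (hF : LT.IsUniversal p n Γ F) (hA : LT.HeightAdapted p n F)
    (G : Type) [Group G] [TopologicalSpace G] [ContinuousMul G] (a : G → St.Pair p n)
    (ha : St.IsFiniteIndex F a)
    (hcont : ∀ K, ∀ᶠ x in 𝓝 (1 : G), PowerSeries.coeff 1 (a x).g - 1 ∈
      LT.heightIdeal p n n ^ K ∧ ∀ r, (a x).φ r - r ∈ LT.heightIdeal p n n ^ K) :
    (∀ i k, St.IsMoravaModule a (St.omegaTwist a i k)) ∧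
    (∀ (k₀ : ℤ) (r : ℕ), 1 ≤ r → r ≤ p ^ (n - 1) - 1 → ((p ^ (n - 1) - 1 : ℕ) : ℤ) ∣ k₀ - r →
      (∃ T ⊆ Finset.range (n - 1), (k₀ ≠ 0 → T.Nonempty) ∧
        ¬ St.HFG p n (St.omegaTwist a (p ^ n - 1 - r)
          (k₀ - ∑ h ∈ T, ((p : ℤ) ^ h - 1))) T.card) ∧
      ((∀ x, LT.red p n (PowerSeries.coeff 1 (a x).g) ^ r = 1) →
        ∃ T ⊆ Finset.range (n - 1), (k₀ ≠ 0 → T.Nonempty) ∧
          ¬ St.HFG p n (St.twist a (k₀ - ∑ h ∈ T, ((p : ℤ) ^ h - 1))) T.card)) ∧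
    ((∀ x, LT.red p n (PowerSeries.coeff 1 (a x).g) = 1) → ∀ k₀ : ℤ,
      ∃ T ⊆ Finset.range (n - 1), (k₀ ≠ 0 → T.Nonempty) ∧
        ¬ St.HFG p n (St.twist a (k₀ - ∑ h ∈ T, ((p : ℤ) ^ h - 1))) T.card) := by
  have hp1 : 1 < p := (Fact.out : p.Prime).one_lt
  have hmain : ∀ (k₀ : ℤ) (r : ℕ), 1 ≤ r → r ≤ p ^ (n - 1) - 1 →
      ((p ^ (n - 1) - 1 : ℕ) : ℤ) ∣ k₀ - r →
      ∃ T ⊆ Finset.range (n - 1), (k₀ ≠ 0 → T.Nonempty) ∧
        ¬ St.HFG p n (St.omegaTwist a (p ^ n - 1 - r)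
          (k₀ - ∑ h ∈ T, ((p : ℤ) ^ h - 1))) T.card := by
    intro k₀ r hr1 hr2 hdvd
    by_contra hcon
    push Not at hcon
    obtain ⟨ρ, hρ⟩ := exists_rho_q ha (by omega) hF hA (n - 1) (by omega) (p ^ n - 1 - r) k₀
    have h1 : LevelFG a (p ^ n - 1 - r) (n - 1) 0 k₀ := by
      refine windowT (n := n) (p := p) (LevelFG a (p ^ n - 1 - r)) (fun h j k hh h1 h2 => ?_)
        (n - 1) (by omega) 0 k₀ fun T hT => ?_
      · refine S Γ F hn2 hΓ hF hA G a ha hcont _ h j k hh h1 ?_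
        have h3 : ((p ^ h - 1 : ℕ) : ℤ) = (p : ℤ) ^ h - 1 := by
          rw [Nat.cast_sub (Nat.one_le_pow _ _ (by omega)), Nat.cast_pow, Nat.cast_one]
        rw [h3]
        exact h2
      · rw [zero_add]
        intro ρ' hρ'
        refine base_bot ?_ ρ' hρ'
        by_cases hT0 : k₀ ≠ 0 → T.Nonempty
        · exact hcon T hT hT0
        · push Not at hT0
          obtain ⟨hk, hT1⟩ := hT0
          rw [hT1, Finset.sum_empty, sub_zero, Finset.card_empty]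
          exact omega_HFG_zero ha (by omega) hΓ hF hA _ k₀ hk
    exact H288.not_HFG hn2 hΓ hF hA ha (fun K => (hcont K).mono fun x hx => hx.1) k₀ r hr1 hr2
      hdvd ρ hρ (h1 ρ hρ)
  have hN : 1 ≤ p ^ (n - 1) - 1 := by
    have := Nat.one_lt_pow (show n - 1 ≠ 0 by omega) hp1
    omega
  have hpow : ∀ (k₀ : ℤ) (r : ℕ), 1 ≤ r → r ≤ p ^ (n - 1) - 1 →
      ((p ^ (n - 1) - 1 : ℕ) : ℤ) ∣ k₀ - r →
      (∀ x, LT.red p n (PowerSeries.coeff 1 (a x).g) ^ r = 1) →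
      ∃ T ⊆ Finset.range (n - 1), (k₀ ≠ 0 → T.Nonempty) ∧
        ¬ St.HFG p n (St.twist a (k₀ - ∑ h ∈ T, ((p : ℤ) ^ h - 1))) T.card := by
    intro k₀ r hr1 hr2 hdvd h1
    obtain ⟨T, hT, hT0, hk3⟩ := hmain k₀ r hr1 hr2 hdvd
    refine ⟨T, hT, hT0, ?_⟩
    have hlt : p ^ (n - 1) < p ^ n := Nat.pow_lt_pow_right hp1 (by omega)
    rwa [omega_of_pow ha (by omega) (by omega) h1] at hk3
  refine ⟨fun i k => omega_module ha (by omega) i k, fun k₀ r hr1 hr2 hdvd =>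
    ⟨hmain k₀ r hr1 hr2 hdvd, hpow k₀ r hr1 hr2 hdvd⟩, fun h1 k₀ => ?_⟩
  obtain ⟨r, hr1, hr2, hdvd⟩ := exists_r hN k₀
  exact hpow k₀ r hr1 hr2 hdvd fun x => by rw [h1, one_pow]

end Vale.Agent.P261.R2.H823
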