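import Vale.Agent.P261.R2.H823.Equiv
import Vale.Agent.P261.R2.H288.HFG

/-!
# P261: `H¹(G; π_{2k} E_n ⊗ ω^i)` is finite for `k ≠ 0`
-/

namespace Vale.Agent.P261.R2.H823

open MvPowerSeries Vale.Agent.P217 Vale.Agent.P217.H934 Vale.Agent.P261 Vale.Agent.P261.R2.H932
  Topology

variable {p n : ℕ} [Fact p.Prime] {Γ : FormalGroup (ZMod p)} {F : FormalGroup (LT.E0 p n)}

section

variable {G : Type} [Group G] {a : G → St.Pair p n} (ha : St.IsFiniteIndex F a)

include ha in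
/-- the central element. -/
theorem omega_central (hF : LT.IsUniversal p n Γ F) (i : ℕ) (k : ℤ) (hk : k ≠ 0) :
    St.CentralScalar p n (St.omegaTwist a i k) := by
  have hp : 1 < p := (Fact.out : p.Prime).one_lt
  have hpd : ¬ p ∣ 1 + p := by
    intro h
    have h1 : p ∣ 1 := (Nat.dvd_add_left (dvd_refl p)).1 h
    exact (Fact.out : p.Prime).one_lt.ne' (Nat.dvd_one.1 h1)
  obtain ⟨z, hz1, hz2, -, hz4⟩ := Gn.central (F := F) hF.1 (1 + p) hpd
  obtain ⟨j, hj1, -, hj⟩ := (jj ha).range.exists_pow_mem_of_index_ne_zero (jj_index ha) z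
  obtain ⟨y, hy⟩ := hj
  have hpi : Gn.pi (z ^ j) = 1 := by rw [map_pow, hz1, one_pow]
  have ht : Gn.t (z ^ j) = (((1 + p) ^ j : ℕ) : LT.E0 p n) := by
    rw [Gn.t_pow hz1, hz2, Nat.cast_pow]
  have hw : ww (z ^ j) = 1 := by
    rw [ww, ht, map_natCast, Nat.cast_pow, Nat.cast_add, Nat.cast_one, CharP.cast_eq_zero,
      add_zero, one_pow, tch_one]
  have hu : IsUnit (((1 + p) ^ j : ℕ) : ℤ_[p]) := by
    rw [Nat.cast_pow]
    refine IsUnit.pow j ?_
    refine IsLocalRing.isUnit_of_mem_nonunits_one_sub_self _ ?_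
    rw [Nat.cast_add, Nat.cast_one, sub_add_cancel_left]
    intro h
    exact PadicInt.p_nonunit (IsUnit.neg_iff _ |>.1 h)
  have hmap : Units.map ((St.zp p n : ℤ_[p] →+* LT.E0 p n) : ℤ_[p] →* LT.E0 p n) hu.unit =
      (Gn.isUnit_t (z ^ j)).unit := by
    apply Units.ext
    show St.zp p n (((1 + p) ^ j : ℕ) : ℤ_[p]) = Gn.t (z ^ j)
    rw [ht, map_natCast]
  refine ⟨y, fun x => jj_injective ha ?_, ((hu.unit ^ k : ℤ_[p]ˣ) : ℤ_[p]), ?_, fun m => ?_⟩
  · rw [map_mul, map_mul, hy]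
    have h : Commute z (jj ha x) := hz4 (jj ha x)
    exact (h.pow_left j).eq
  · intro h
    have h1 : hu.unit ^ k = 1 := Units.ext h
    have h2 : hu.unit ^ k.natAbs = 1 := by
      obtain ⟨m, rfl | rfl⟩ := k.eq_nat_or_neg
      · rw [zpow_natCast] at h1
        rw [Int.natAbs_natCast, h1]
      · rw [zpow_neg, zpow_natCast, inv_eq_one] at h1
        rw [Int.natAbs_neg, Int.natAbs_natCast, h1]
    have h3 := congrArg Units.val h2
    rw [Units.val_pow_eq_pow_val, IsUnit.unit_spec, Units.val_one, ← Nat.cast_pow, ← pow_mul,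
      Nat.cast_eq_one] at h3
    have ha' : 0 < j * k.natAbs := Nat.mul_pos hj1 (Int.natAbs_pos.2 hk)
    have hL : 1 < (1 + p) ^ (j * k.natAbs) := Nat.one_lt_pow ha'.ne' (by omega)
    exact hL.ne' h3
  · rw [omega_eq ha, hy, hw, one_pow, one_mul, Gn.tw, hpi, ← hmap, ← map_zpow]
    rfl

theorem torsionFree_E0 : St.TorsionFree p n (LT.E0 p n) := by
  have hD : IsDomain (LT.E0 p n) := NoZeroDivisors.to_isDomain _
  intro m hm
  rw [smul_eq_mul] at hm
  exact (mul_eq_zero.1 hm).resolve_left H86.p_ne_zero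

include ha in
/-- a finite `H¹` is finitely generated. -/
theorem HFG_of_H1Finite [TopologicalSpace G] [ContinuousMul G] {M : Type} [AddCommGroup M]
    [Module (LT.E0 p n) M] {ρ : G → M → M} (hA : LT.HeightAdapted p n F)
    (h : St.IsMoravaModule a ρ) (H : St.H1Finite p n ρ) : St.HFG p n ρ 0 := by
  classical
  obtain ⟨S, hS, hSZ, hall⟩ := H
  obtain ⟨d, e, hrange⟩ : ∃ (d : ℕ) (e : Fin d → G → M), Set.range e = S := by
    have := hS.fintype
    refine ⟨Fintype.card S, fun i => ((Fintype.equivFin S).symm i : G → M), ?_⟩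
    ext c
    constructor
    · rintro ⟨i, rfl⟩
      exact ((Fintype.equivFin S).symm i).2
    · intro hc
      exact ⟨Fintype.equivFin S ⟨c, hc⟩, by simp⟩
  have he : ∀ i, St.IsCocycle p n ρ (e i) := fun i => hSZ _ (hrange ▸ ⟨i, rfl⟩)
  refine ⟨d, fun i y => e i (y 0), fun i => H288.toCochain hA ha h (he i), ?_⟩
  intro c hc hdc
  have hc1 := H288.ofCochain h hc hdc
  obtain ⟨c', hc', m, hm⟩ := hall _ hc1
  rw [← hrange] at hc'
  obtain ⟨i, rfl⟩ := hc'
  refine ⟨Pi.single i 1, fun _ => m, fun k x => Filter.Eventually.of_forall fun y => by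
    rw [sub_self]; exact Submodule.zero_mem _, ?_⟩
  funext x
  have h1 : (fun _ => x 0 : Fin 1 → G) = x := by
    funext i
    rw [Subsingleton.elim i 0]
  have h2 := hm (x 0)
  rw [Pi.sub_apply, h1, sub_eq_iff_eq_add] at h2
  rw [h2, Pi.add_apply, Finset.sum_apply, Finset.sum_eq_single i]
  · rw [Pi.smul_apply, Pi.single_eq_same, map_one, one_smul, H288.coboundary_zero]
    abel
  · intro l _ hl
    rw [Pi.smul_apply, Pi.single_eq_of_ne hl, map_zero, zero_smul]
  · intro hi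
    exact absurd (Finset.mem_univ _) hi

include ha in
/-- `H¹(G; π_{2k} E_n ⊗ ω^i)` is finitely generated for `k ≠ 0`. -/
theorem omega_HFG_zero (hn1 : 1 ≤ n) (hΓ : LT.IsHonda p n Γ) (hF : LT.IsUniversal p n Γ F)
    (hA : LT.HeightAdapted p n F) [TopologicalSpace G] [ContinuousMul G] (i : ℕ) (k : ℤ)
    (hk : k ≠ 0) : St.HFG p n (St.omegaTwist a i k) 0 :=
  HFG_of_H1Finite ha hA (omega_module ha hn1 i k)
    (h1fin' hn1 hΓ hF hA ha (omega_module ha hn1 i k) torsionFree_E0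
      (omega_central ha hF i k hk))

end

end Vale.Agent.P261.R2.H823
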